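import Vale.Agent.P025.R2.H722.Cp

/-!
# P025 G-MAIN (helper352): `Cp p Kb` as an algebra over `ℚ_p`
-/

set_option linter.style.haveILetI false

universe u

namespace P025H352

open P025H722

variable (p : ℕ) [Fact p.Prime] (Kb : Type u) [Field Kb] [Algebra ℚ_[p] Kb]
  [Algebra.IsAlgebraic ℚ_[p] Kb]

/-- the structure of algebra over `ℚ_p` -/
@[reducible] noncomputable def algQp : Algebra ℚ_[p] (Cp p Kb) :=
  ((algebraMap Kb (Cp p Kb)).comp (algebraMap ℚ_[p] Kb)).toAlgebra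

theorem tower_algQp : letI := algQp p Kb
    IsScalarTower ℚ_[p] Kb (Cp p Kb) := by
  letI := algQp p Kb
  exact IsScalarTower.of_algebraMap_eq' rfl

theorem norm_algQp (x : ℚ_[p]) : letI := algQp p Kb
    ‖algebraMap ℚ_[p] (Cp p Kb) x‖ = ‖x‖ := by
  letI := algQp p Kb
  change ‖algebraMap Kb (Cp p Kb) (algebraMap ℚ_[p] Kb x)‖ = ‖x‖
  rw [Cp.norm_algebraMap, spectralNorm_extends]

/-- the elements of `Cp p Kb` integral over `ℚ_p` are dense -/
theorem dense_integral : letI := algQp p Kb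
    Dense {x : Cp p Kb | IsIntegral ℚ_[p] x} := by
  letI := algQp p Kb
  haveI := tower_algQp p Kb
  refine (Cp.denseRange_algebraMap p Kb).mono ?_
  rintro _ ⟨x, rfl⟩
  exact (Algebra.IsIntegral.isIntegral (R := ℚ_[p]) x).map
    (IsScalarTower.toAlgHom ℚ_[p] Kb (Cp p Kb))

end P025H352
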